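import Vale.Agent.P367A.A1a

/-! The chain of a minimiser of the Parisi functional and the value inequality. -/

namespace Vale.Agent.P367A

open MeasureTheory ProbabilityTheory Real Finset Filter Topology Vale.Agent.P146M Vale.Agent.P146
  Vale.Agent.P146L

noncomputable section

variable {β : ℝ} {k M j : ℕ} {r : ℕ → ℝ}

theorem int_ham (n : ℕ) (σ : Fin n → Bool) : Integrable (fun g => ham n g σ) (disorder n) := by
  refine Integrable.const_mul (integrable_finsetSum _ fun p _ => ?_) _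
  refine (Integrable.mul_const ?_ _).mul_const _
  exact (measurePreserving_eval (fun _ : Pair n => gaussianReal 0 1) p).integrable_comp_of_integrable
    (IsGaussian.integrable_id (μ := gaussianReal 0 1))

theorem int_sup (n : ℕ) : Integrable (fun g => ⨆ σ, ham n g σ) (disorder n) := by
  refine (integrable_finsetSum univ fun σ _ => (int_ham n σ).abs).mono'
    (Measurable.iSup fun σ => by unfold ham; fun_prop).aestronglyMeasurable
    (ae_of_all _ fun g => ?_)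
  obtain ⟨σ, e⟩ := exists_eq_ciSup_of_finite (f := fun σ => ham n g σ)
  rw [← e, Real.norm_eq_abs]
  exact single_le_sum (f := fun σ => |ham n g σ|) (fun _ _ => abs_nonneg _) (mem_univ σ)

/-- the bound of Guerra -/
theorem emax_le (hβ : 0 < β) (hk : 0 < k) (hr : AdmR r) {n : ℕ} (hn : 0 < n) :
    β * (Emax n / n) ≤ PK β k r + 1 + (4 + 2 * M4) * β ^ 4 / k := by
  have n1 : (1 : ℝ) ≤ n := by exact_mod_cast hn
  have k1 : (1 : ℝ) ≤ k := by exact_mod_cast hk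
  have m0 : (0 : ℝ) < 1 / k := by positivity
  obtain ⟨h1, h2, -⟩ := conv_SK hβ hn m0 (div_le_one_of_le₀ k1 (by positivity))
  have h3 := guerra hβ hn hk hr fun l hl => by rw [Nat.le_zero.1 hl, hr.1]
  rw [YP_eq hk, Nat.cast_zero, zero_add] at h3
  have h4 : β * Emax n ≤ ∫ g, FF n β g ∂γ (Pr n) := by
    rw [Emax, ← integral_const_mul]
    refine integral_mono ((int_sup n).const_mul β) (h1.integrable one_le_two) fun g => ?_
    obtain ⟨σ, e⟩ := exists_eq_ciSup_of_finite (f := fun σ => ham n g σ)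
    rw [← freeEn_eq hβ, freeEn]
    simp only [← e]
    rw [le_log_iff_exp_le (sum_pos (fun _ _ => exp_pos _) univ_nonempty)]
    exact single_le_sum (f := fun σ => exp (β * ham n g σ)) (fun _ _ => (exp_pos _).le) (mem_univ σ)
  have h5 := mul_nonneg m0.le (variance_nonneg (FF n β) (γ (Pr n)))
  have := M4_nonneg
  have h6 : 0 ≤ (4 + 2 * M4) * β ^ 4 / k := by positivity
  have h7 := mul_le_mul_of_nonneg_right n1 h6
  have h8 : log 2 ≤ 1 := by linarith [log_two_lt_d9]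
  have h9 := mul_le_mul_of_nonneg_left h8 (n.cast_nonneg (α := ℝ))
  rw [← mul_div_assoc, div_le_iff₀ (by positivity)]
  have e : (4 + 2 * M4) * β ^ 4 / k = 1 / k * ((4 + 2 * M4) * β ^ 4) := by ring
  linarith

theorem PK_eq (hr : AdmR r) (hk : 0 < k) : PK β k r = β ^ 2 / 4 + (Ph k r 0 0 - r k / 2) +
    (1 / (4 * k * β ^ 2)) * ∑ l ∈ range k, r l ^ 2 := by
  obtain ⟨n, rfl⟩ : ∃ n, k = n + 1 := ⟨k - 1, by omega⟩
  have hz : zt (n + 1) n = 1 := by rw [zt, Nat.cast_succ, div_self (by positivity)]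
  have e1 : (RS (n + 1) (vv r)).X 1 (0 + n) lc = fun x => lc x + vv r n / 2 := by
    refine (Ch1_T (by omega) _ _).trans ?_
    rw [zero_add, hz]
    exact stp_lc (vv_nonneg hr _)
  rw [PK, XN_B hk, XI, casc_eq _ _ (by omega), Ph, Nat.sub_zero, Sys.X_add, e1,
    Sys.X_add_const (rs_ok hk _) (gd_lc.toLp.lin 0 0)]
  simp only [Nat.add_sub_cancel]
  unfold vv lc
  ring

/-- no interior maximum and the second order condition bound the susceptibility everywhere -/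
theorem gap_bound (hK : LemK) (hβ : 0 < β) : ∃ C, 0 ≤ C ∧ ∀ (k : ℕ) (r : ℕ → ℝ), IsMz β k r →
    ∀ l, l + 1 < k → Nn k r (l + 1) ≤ 1 / β ^ 2 + C / k ∧ ∀ x x', 0 ≤ x → x ≤ x' → x' ≤ vv r l →
      gG k r l x' - gG k r l x ≤ (x' - x) * (1 / β ^ 2 + C / k) := by
  obtain ⟨C1, c1, h1⟩ := so β hβ
  obtain ⟨C2, c2, h2⟩ := gap_incr (β ^ 2 + 1)
  refine ⟨C1 + C2 * (β ^ 2 + 1), by positivity, fun k r h l hl => ?_⟩
  have k0 : (0 : ℝ) < k := by exact_mod_cast (by omega : 0 < k)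
  have p : 0 ≤ C2 * (β ^ 2 + 1) / k := by positivity
  have H := h2 k r l h.adm (SO_le h k) (by omega)
  have n1 := h1 k r h (l + 1) (by omega) hl
  rw [add_div]
  refine ⟨by linarith, fun x x' h0 hx hx' => gap2_up (C := C2) hx (fun y y' a b c =>
    (le_abs_self _).trans (H y y' (h0.trans a) b (c.trans hx')).1) fun y a b => ?_⟩
  rcases Nat.eq_zero_or_pos l with rfl | l0
  · have h3 := (H y _ (h0.trans a) (b.trans hx') le_rfl).2.1
    rw [(gap_ends h.adm (by omega)).2.2.2, zt, Nat.cast_zero, zero_add] at h3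
    have h4 : vv r 0 - y ≤ β ^ 2 + 1 := by
      have := SO_le h (0 + 1)
      rw [vv, h.adm.1]
      linarith
    have h5 := mul_le_mul_of_nonneg_left h4 (by positivity : 0 ≤ C2 * (1 / k))
    have e : C2 * (β ^ 2 + 1) / k = C2 * (1 / k) * (β ^ 2 + 1) := by ring
    linarith
  · have n0 := h1 k r h l l0 (by omega)
    exact (hK k r l y h.adm l0 hl (h0.trans a) (b.trans hx')).trans (by
      linarith [max_le n0 n1])

theorem top_le (hr : AdmR r) (hk : 0 < k) : (1 - Gam k r (k - 1)) ^ 2 ≤ Nn k r (k - 1) ∧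
    Ph k r (k - 1) 0 = vv r (k - 1) / 2 := by
  obtain ⟨n, rfl⟩ : ∃ n, k = n + 1 := ⟨k - 1, by omega⟩
  simp only [Nat.add_sub_cancel]
  have hz : zt (n + 1) n = 1 := by rw [zt, Nat.cast_succ, div_self (by positivity)]
  have e : Ph (n + 1) r n = fun x => lc x + vv r n / 2 := by
    rw [Ph_succ (Nat.lt_succ_self n), Ph_top, hz, stp_lc (vv_nonneg hr _)]
  have e1 : D1 (Ph (n + 1) r n) = D1 lc := by
    rw [e]
    simp only [D1, deriv_add_const']
  have e2 : D2 (Ph (n + 1) r n) = D2 lc := by rw [D2, e1]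
  refine ⟨?_, by simp [e, lc]⟩
  set c := 1 - Gam (n + 1) r n with hc
  have g1 := gd_lc.toLp.gr1.pow 2
  have h1 := Ch2_mono (r := r) hk (Nat.le_succ n) ((Gr.const (2 * c - c ^ 2)).add
    ((Gr.const (-(2 * c))).mul g1)) (gd_lc.gr2.pow 2) fun y => by
      rw [D2_lc, D1_lc]
      nlinarith [sq_nonneg (1 - (sinh y / cosh y) ^ 2 - c)]
  rw [Ch2_lin hk (Nat.le_succ n) (Gr.const _) g1, Ch2_const hk (Nat.le_succ n), ← e1, ← e2,
    ← Gam, ← Nn] at h1
  have : Gam (n + 1) r n = 1 - c := by rw [hc]; ring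
  rw [this] at h1
  linarith

/-- step sizes -/
def ch (M : ℕ) (r : ℕ → ℝ) (j : ℕ) : ℝ := vv r (j / M) / M

/-- time inside the gap -/
def cx (M : ℕ) (r : ℕ → ℝ) (j : ℕ) : ℝ := (j % M : ℕ) * ch M r j

def cz (k M j : ℕ) : ℝ := zt k (j / M)

def cP (k M : ℕ) (r : ℕ → ℝ) (j : ℕ) : ℝ → ℝ := Pg k r (j / M) (cx M r j)

theorem c_case (hM : 0 < M) (r : ℕ → ℝ) (j : ℕ) :
    ((j + 1) / M = j / M ∧ cx M r (j + 1) = cx M r j + ch M r j) ∨
    ((j + 1) / M = j / M + 1 ∧ cx M r (j + 1) = 0 ∧ cx M r j + ch M r j = vv r (j / M)) := by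
  have h1 := Nat.div_add_mod j M
  have h2 := Nat.mod_lt j hM
  rcases Nat.lt_or_ge (j % M + 1) M with h | h
  · have := (Nat.div_mod_unique hM (a := j + 1) (d := j / M) (c := j % M + 1)).2 ⟨by omega, h⟩
    refine Or.inl ⟨this.1, ?_⟩
    rw [cx, cx, ch, ch, this.1, this.2]
    push_cast
    ring
  · have := (Nat.div_mod_unique hM (a := j + 1) (d := j / M + 1) (c := 0)).2
      ⟨by rw [mul_add]; omega, hM⟩
    refine Or.inr ⟨this.1, by simp [cx, this.2], ?_⟩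
    have e : ((j % M : ℕ) : ℝ) + 1 = M := by exact_mod_cast (by omega : j % M + 1 = M)
    have m0 : (M : ℝ) ≠ 0 := by positivity
    rw [cx, ← add_one_mul, e, ch, mul_div_cancel₀ _ m0]

theorem c_mem (hM : 0 < M) (hr : AdmR r) (j : ℕ) : 0 ≤ ch M r j ∧ 0 ≤ cx M r j ∧
    cx M r j + ch M r j ≤ vv r (j / M) := by
  have h0 : 0 ≤ ch M r j := div_nonneg (vv_nonneg hr _) M.cast_nonneg
  refine ⟨h0, mul_nonneg (Nat.cast_nonneg _) h0, ?_⟩
  have e : ((j % M : ℕ) : ℝ) + 1 ≤ M := by exact_mod_cast Nat.mod_lt j hM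
  have m0 : (M : ℝ) ≠ 0 := by positivity
  rw [cx, ← add_one_mul]
  exact (mul_le_mul_of_nonneg_right e h0).trans_eq (mul_div_cancel₀ _ m0)

theorem c_next (hM : 0 < M) (hl : j / M + 1 < k) :
    cP k M r (j + 1) = Pg k r (j / M) (cx M r j + ch M r j) ∧ ∀ f, Gr f →
      Eg k r ((j + 1) / M) (cx M r (j + 1)) f = Eg k r (j / M) (cx M r j + ch M r j) f := by
  rcases c_case hM r j with ⟨e1, e2⟩ | ⟨e1, e2, e3⟩
  · rw [cP, e1, e2]
    exact ⟨rfl, fun _ _ => rfl⟩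
  · rw [cP, e1, e2, e3, Pg_zero hl, Pg_end (by omega)]
    exact ⟨rfl, fun f hf => by rw [Eg_zero hl r hf, Eg_end (by omega) r hf]⟩

theorem c_lt (hj : j < (k - 1) * M) : j / M + 1 < k := by
  have : j / M < k - 1 := Nat.div_lt_of_lt_mul (mul_comm (k - 1) M ▸ hj)
  exact Nat.add_lt_of_lt_sub this

theorem c_EE (hM : 0 < M) (hk : 0 < k) (hr : AdmR r) (hj : j ≤ (k - 1) * M) {f : ℝ → ℝ}
    (hf : Gr f) : EE (cz k M) (ch M r) (cP k M r) j f = Eg k r (j / M) (cx M r j) f := by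
  induction j generalizing f with
  | zero =>
    rw [show cx M r 0 = 0 by simp [cx], Nat.zero_div, Eg_zero hk r hf, EL_zero hf.1]
    rfl
  | succ j ih =>
    have hl := c_lt (j := j) hj
    obtain ⟨e1, e2⟩ := c_next (r := r) hM hl
    obtain ⟨p0, p1, p2⟩ := c_mem hM hr j
    rw [EE, e1, cz, ih (by omega) (hf.K (zt_pos hk _) (lp_Pg (by omega) r _) _), e2 f hf,
      Eg_step (by omega) p1 (le_add_of_nonneg_right p0) p2 hf, add_sub_cancel_left]

theorem c_vv (h : IsMz β k r) (l : ℕ) : vv r l ≤ β ^ 2 + 1 := by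
  linarith [SO_le h (l + 1), Ch2_r h.adm l, show vv r l = r (l + 1) - r l from rfl]

theorem c_arith {m kr κ C T S c g P R X V Q : ℝ} (hβ : 1 ≤ β) (m0 : 0 < m) (kr0 : 0 < kr)
    (κ0 : 0 ≤ κ) (hC : 0 ≤ C) (T0 : 0 ≤ T) (T1 : T ≤ β ^ 2) (S0 : 0 ≤ S) (cp : 0 < c)
    (c1 : 1 ≤ β * c) (c3 : c ≤ 2) (fo : T = β ^ 2 * g) (t : (1 - g) ^ 2 ≤ 1 / β ^ 2 + κ)
    (va : P ≤ (R - T) / 2 + (S + X))
    (up : X ≤ 1 / β ^ 2 * (T ^ 2 - 1 / kr * Q - 0) / 4 +
      (3 / 4 * (1 / β ^ 2) * ((β ^ 2 + 1) / m) + 3 / 2 * κ * T) * T)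
    (lo : c * S - ((1 / β ^ 2 + κ) * T - (1 / β ^ 2 * T - 0)) / c - c * (T / m - 0 / m) -
      C * (c * √((β ^ 2 + 1) / m)) * T ≤ V) :
    β ^ 2 / 4 + (P - R / 2) + 1 / (4 * kr * β ^ 2) * Q ≤ β * V + 1 / 4 + 4 * β ^ 4 * κ +
      (4 * β ^ 3 * (1 / m) + 4 * C * β ^ 4 * √(1 / m)) := by
  have b0 : 0 < β := by linarith
  have b2 : 1 ≤ β ^ 2 := one_le_pow₀ hβ
  obtain ⟨u, hu⟩ : ∃ u, u = 1 / m := ⟨_, rfl⟩
  have u0 : 0 ≤ u := by rw [hu]; positivity
  have q1 : (β ^ 2 - T) ^ 2 / (4 * β ^ 2) ≤ 1 / 4 + β ^ 2 * κ / 4 := by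
    have := mul_le_mul_of_nonneg_left t (by positivity : 0 ≤ β ^ 2 / 4)
    rw [fo]
    refine le_of_eq_of_le ?_ (this.trans_eq ?_) <;> field_simp
  have q2 : β * (((1 / β ^ 2 + κ) * T - (1 / β ^ 2 * T - 0)) / c) ≤ β ^ 4 * κ := by
    rw [← mul_div_assoc, div_le_iff₀ cp]
    have a1 := mul_le_mul_of_nonneg_left T1 (mul_nonneg b0.le κ0)
    have a2 := mul_le_mul_of_nonneg_left c1 (by positivity : 0 ≤ β ^ 3 * κ)
    linarith
  have q3 : β * (c * (T / m - 0 / m)) ≤ 2 * β ^ 3 * u := by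
    rw [zero_div, sub_zero, div_eq_mul_one_div, ← hu]
    calc β * (c * (T * u)) ≤ β * (2 * (β ^ 2 * u)) := by gcongr
      _ = _ := by ring
  have q4 : β * (C * (c * √((β ^ 2 + 1) / m)) * T) ≤ 4 * C * β ^ 4 * √u := by
    have : √((β ^ 2 + 1) / m) ≤ 2 * β * √u := by
      rw [div_eq_mul_one_div, ← hu, sqrt_mul (by positivity)]
      exact mul_le_mul_of_nonneg_right (sqrt_le_iff.2 ⟨by positivity, by linarith⟩) (sqrt_nonneg _)
    calc _ ≤ β * (C * (2 * (2 * β * √u)) * β ^ 2) := by gcongr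
      _ = _ := by ring
  have q5 : (3 / 4 * (1 / β ^ 2) * ((β ^ 2 + 1) / m) + 3 / 2 * κ * T) * T ≤
      2 * β ^ 3 * u + 3 / 2 * β ^ 4 * κ := by
    have a1 : 1 / β ^ 2 * ((β ^ 2 + 1) / m) ≤ 2 * u := by
      rw [div_eq_mul_one_div (β ^ 2 + 1), ← hu, ← mul_assoc]
      refine mul_le_mul_of_nonneg_right ?_ u0
      rw [mul_add, one_div_mul_cancel (by positivity)]
      linarith [div_le_one_of_le₀ b2 (by positivity)]
    have a2 := mul_le_mul_of_nonneg_left (pow_le_pow_right₀ hβ (by norm_num : 2 ≤ 3)) u0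
    have a3 : 0 ≤ u * β ^ 3 := by positivity
    calc _ ≤ (3 / 4 * (2 * u) + 3 / 2 * κ * β ^ 2) * β ^ 2 := by
          rw [mul_assoc (3 / 4 : ℝ)]
          gcongr
      _ ≤ _ := by linarith
  have q6 := mul_le_mul_of_nonneg_right c1 S0
  have q7 := mul_le_mul_of_nonneg_left lo b0.le
  have q8 : β ^ 2 * κ ≤ β ^ 4 * κ :=
    mul_le_mul_of_nonneg_right (pow_le_pow_right₀ hβ (by norm_num)) κ0
  have q9 : 0 ≤ β ^ 4 * κ := by positivity
  have e : β ^ 2 / 4 - T / 2 + 1 / (4 * kr * β ^ 2) * Q +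
      1 / β ^ 2 * (T ^ 2 - 1 / kr * Q - 0) / 4 = (β ^ 2 - T) ^ 2 / (4 * β ^ 2) := by
    field_simp
    ring
  rw [← hu]
  linarith

theorem c_main (hK : LemK) (hβ : 1 ≤ β) : ∃ B C0 : ℝ, 0 ≤ C0 ∧ ∀ (k M : ℕ) (r : ℕ → ℝ) (C : ℝ),
    IsMz β k r → 2 ≤ k → β ^ 2 + 1 ≤ M → C0 / k ≤ 1 → 0 ≤ C →
    Chain ((k - 1) * M) B (cz k M) (ch M r) (cP k M r) ∧
    PK β k r ≤ β * cval (cz k M) (ch M r) (cP k M r) ((k - 1) * M) C + 1 / 4 +
      4 * β ^ 4 * (C0 / k) + (4 * β ^ 3 * (1 / M) + 4 * C * β ^ 4 * √(1 / M)) := by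
  have b0 : 0 < β := by linarith
  obtain ⟨B, -, hB⟩ := chain_gd (β ^ 2 + 1)
  obtain ⟨C0, c0, hG⟩ := gap_bound hK b0
  refine ⟨B, C0, c0, fun k M r C h hk hM hκ hC => ?_⟩
  have b2 : 1 ≤ β ^ 2 := one_le_pow₀ hβ
  have m0 : (0 : ℝ) < M := by linarith
  have hM0 : 0 < M := by exact_mod_cast m0
  have k0 : 0 < k := by omega
  have kr : (0 : ℝ) < k := by exact_mod_cast k0
  have hr := h.adm
  set K := (k - 1) * M with hKd
  set κ := C0 / k with hκd
  have κ0 : 0 ≤ κ := by positivity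
  have eK : K / M = k - 1 := Nat.mul_div_cancel _ hM0
  have xK : cx M r K = 0 := by simp [cx, hKd]
  have hη : ∀ j < K, ch M r j ≤ (β ^ 2 + 1) / M := fun j _ =>
    div_le_div_of_nonneg_right (c_vv h _) m0.le
  have lK : ∀ j ≤ K, j / M < k := fun j hj => by
    have := Nat.div_le_div_right (c := M) hj
    omega
  have H : Chain K B (cz k M) (ch M r) (cP k M r) :=
    { z0 := fun j _ => zt_pos k0 _
      z1 := fun j hj => zt_le (lK j hj.le)
      h0 := fun j _ => (c_mem hM0 hr j).1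
      h1 := fun j hj => (hη j hj).trans (div_le_one_of_le₀ hM m0.le)
      gd := fun j hj => ⟨_, hB k r _ hr (SO_le h k) (lK j hj) _ (c_mem hM0 hr j).2.1
        (by linarith [(c_mem hM0 hr j).1, (c_mem hM0 hr j).2.2])⟩
      st := fun j hj => by
        obtain ⟨p0, -, p2⟩ := c_mem hM0 hr j
        rw [(c_next hM0 (c_lt hj)).1, cP, Pg_step (lK j hj.le) (le_add_of_nonneg_right p0) p2,
          add_sub_cancel_left, cz] }
  refine ⟨H, ?_⟩
  set G := GG (cz k M) (ch M r) (cP k M r) with hGd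
  set A := AA (cz k M) (ch M r) (cP k M r) with hAd
  have eG : ∀ j ≤ K, G j = gG k r (j / M) (cx M r j) := fun j hj =>
    c_EE hM0 k0 hr hj ((H.lp hj).gr1.pow 2)
  have g1 : ∀ j < K, G (j + 1) - G j ≤ ch M r j * (1 / β ^ 2 + κ) := fun j hj => by
    obtain ⟨p0, p1, p2⟩ := c_mem hM0 hr j
    obtain ⟨e1, e2⟩ := c_next (r := r) hM0 (c_lt hj)
    have := (hG k r h _ (c_lt hj)).2 _ _ p1 (le_add_of_nonneg_right p0) p2
    rw [add_sub_cancel_left] at this
    rw [eG j hj.le, eG (j + 1) hj, gG, e2 _ ((lp_Pg (lK (j + 1) hj) r _).gr1.pow 2), ← cP, e1]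
    exact this
  set T := r (k - 1) with hT
  have fo := h.fo b0 k0 (show k - 1 < k by omega)
  have gm := Gam_mem hr (show k - 1 < k by omega)
  have T0 : 0 ≤ T := Ch2_r hr _
  have T1 : T ≤ β ^ 2 := by rw [hT, fo]; exact mul_le_of_le_one_right (by positivity) gm.2
  set s : ℕ → ℝ := fun j => r (j / M) + cx M r j with hs
  have s0 : s 0 = 0 := by simp [hs, cx, hr.1]
  have sK : s K = T := by simp only [hs, eK, xK, add_zero, hT]
  have s1 : ∀ j < K, s (j + 1) = s j + ch M r j := fun j _ => by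
    rcases c_case hM0 r j with ⟨e1, e2⟩ | ⟨e1, e2, e3⟩
    · simp only [hs, e1, e2, add_assoc]
    · simp only [hs, e1, e2, add_assoc, e3, vv]
      ring
  have sh : ∑ j ∈ range K, ch M r j = T := by
    rw [sum_congr rfl fun j hj => eq_sub_of_add_eq' (s1 j (mem_range.1 hj)).symm, sum_range_sub,
      sK, s0, sub_zero]
  have GK : G K = 1 / β ^ 2 * s K := by
    rw [eG K le_rfl, eK, xK, (gap_ends hr (by omega)).1, sK, hT, fo]
    field_simp
  set W : ℕ → ℝ := fun j => cz k M j * s j ^ 2 - 1 / k * ∑ l ∈ range (j / M + 1), r l ^ 2 with hW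
  have w1 : ∀ j < K, W (j + 1) - W j = cz k M j * (s (j + 1) ^ 2 - s j ^ 2) := fun j _ => by
    rcases c_case hM0 r j with ⟨e1, -⟩ | ⟨e1, e2, -⟩
    · simp only [hW, cz, e1]
      ring
    · simp only [hW, hs, cz, e1, e2, sum_range_succ _ (j / M + 1), zt]
      push_cast
      ring
  have W0 : W 0 = 0 := by simp [hW, s0, hr.1]
  have WK : W K = T ^ 2 - 1 / k * ∑ l ∈ range k, r l ^ 2 := by
    simp only [hW, cz, eK, sK, zt, Nat.sub_add_cancel k0]
    rw [show ((k - 1 : ℕ) : ℝ) + 1 = k by exact_mod_cast Nat.sub_add_cancel k0, div_self kr.ne',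
      one_mul]
  have up := real_up (by positivity) κ0 H.h0 hη H.z0 H.z1 s0 s1 H.G_zero GK g1 w1
  set c := √(1 / β ^ 2 + κ) with hc
  have c2 : c ^ 2 = 1 / β ^ 2 + κ := sq_sqrt (by positivity)
  have c1 : 1 ≤ β * c := by
    rw [← div_le_iff₀' b0, hc]
    exact le_sqrt_of_sq_le (by rw [div_pow, one_pow]; linarith)
  have ib : 1 / β ^ 2 ≤ 1 := div_le_one_of_le₀ b2 (by positivity)
  have c3 : c ≤ 2 := sqrt_le_iff.2 ⟨by norm_num, by linarith⟩
  have cp : 0 < c := sqrt_pos.2 (by positivity)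
  have lo := real_low (G := G) (A := A) (d := fun j => r ((j + 1) / M) / M - r (j / M) / M) cp hC
    H.h0 hη (fun j hj => H.G_mono hj) (fun j hj => c2 ▸ g1 j hj) (fun j hj => H.A_mem hj)
    (fun j _ => sub_nonneg.2 (div_le_div_of_nonneg_right
      (hr.2 (Nat.div_le_div_right j.le_succ)) m0.le)) fun j hj => by
      rcases c_case hM0 r j with ⟨e1, -⟩ | ⟨e1, -, -⟩
      · refine Or.inr ⟨lt_of_le_of_ne hj fun e => ?_, by rw [ch, ch, e1]⟩
        have := c_lt hj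
        rw [← e1, e, eK] at this
        omega
      · exact Or.inl (by rw [e1, ch, vv, sub_div])
  have va := H.value
  simp only [mul_add, sum_add_distrib] at va
  obtain ⟨t1, t2⟩ := top_le hr k0
  have t3 := (hG k r h (k - 2) (by omega)).1
  rw [show k - 2 + 1 = k - 1 by omega] at t3
  rw [show cP k M r 0 = Ph k r 0 by rw [cP, show cx M r 0 = 0 by simp [cx], Nat.zero_div,
    Pg_zero k0], show cP k M r K = Ph k r (k - 1) by rw [cP, eK, xK, Pg_zero (by omega)], t2, vv,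
    Nat.sub_add_cancel k0, ← hT] at va
  rw [sum_range_sub (fun j => r (j / M) / M), sh, eK, ← hT, Nat.zero_div, hr.1, GK, sK, c2,
    show G 0 = 0 from H.G_zero] at lo
  rw [sh, sK, WK, W0] at up
  set S := ∑ j ∈ range K, ch M r j * A (j + 1) with hS
  have S0 : 0 ≤ S := sum_nonneg fun j hj =>
    mul_nonneg (H.h0 j (mem_range.1 hj)) (H.A_mem (j := j + 1) (mem_range.1 hj)).1
  rw [PK_eq hr k0, cval]
  exact c_arith hβ m0 kr κ0 hC T0 T1 S0 cp c1 c3 fo (t1.trans t3) va up lo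

/-- part A1 -/
theorem a1 (hK : LemK) {e : ℝ} (he : 0 < e) : ∃ B, ∀ C, 0 ≤ C →
    ∃ (K : ℕ) (z h : ℕ → ℝ) (Φ : ℕ → ℝ → ℝ), Chain K B z h Φ ∧
      ∀ n, 0 < n → Emax n / n ≤ cval z h Φ K C + e := by
  set β := 1 + 4 / e with hβ
  have b1 : 1 ≤ β := le_add_of_nonneg_right (by positivity)
  have b0 : 0 < β := by linarith
  have be : 4 ≤ β * e := by
    rw [hβ, add_mul, div_mul_cancel₀ _ he.ne']
    linarith
  obtain ⟨B, C0, -, H⟩ := c_main hK b1
  refine ⟨B, fun C hC => ?_⟩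
  have t0 := tendsto_const_div_atTop_nhds_zero_nat (𝕜 := ℝ)
  have t1 : Tendsto (fun k : ℕ => 4 * β ^ 4 * (C0 / k) + (4 + 2 * M4) * β ^ 4 / k) atTop (𝓝 0) := by
    simpa using ((t0 C0).const_mul (4 * β ^ 4)).add (t0 ((4 + 2 * M4) * β ^ 4))
  have t2 : Tendsto (fun M : ℕ => 4 * β ^ 3 * (1 / M) + 4 * C * β ^ 4 * √(1 / M)) atTop (𝓝 0) := by
    simpa using ((t0 1).const_mul (4 * β ^ 3)).add ((t0 1).sqrt.const_mul (4 * C * β ^ 4))
  obtain ⟨k, k1, k2, k3⟩ := ((t1.eventually (ge_mem_nhds one_pos)).and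
    (((t0 C0).eventually (ge_mem_nhds one_pos)).and (eventually_ge_atTop 2))).exists
  obtain ⟨M, m1, m2⟩ := ((t2.eventually (ge_mem_nhds one_pos)).and
    (tendsto_natCast_atTop_atTop.eventually_ge_atTop (β ^ 2 + 1))).exists
  obtain ⟨r, hr⟩ := exists_min b0 (show 0 < k by omega)
  obtain ⟨h1, h2⟩ := H k M r C hr k3 m2 k2 hC
  refine ⟨_, _, _, _, h1, fun n hn => le_of_mul_le_mul_left ?_ b0⟩
  have := emax_le b0 (show 0 < k by omega) hr.adm hn
  linarith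

end

end Vale.Agent.P367A
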