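import Vale.Agent.P367A.Defs

/-! General facts on chains, and two inequalities on real sequences. -/

namespace Vale.Agent.P367A

open MeasureTheory ProbabilityTheory Real Finset Vale.Agent.P146M Vale.Agent.P146 Vale.Agent.P146L

variable {K j : ℕ} {B : ℝ} {z h : ℕ → ℝ} {Φ : ℕ → ℝ → ℝ} {f g : ℝ → ℝ}

theorem Chain.lp (H : Chain K B z h Φ) (hj : j ≤ K) : Lp (Φ j) :=
  let ⟨_, hg⟩ := H.gd j hj
  hg.toLp

theorem Chain.add (H : Chain K B z h Φ) (hj : j ≤ K) (hf : Gr f) (hg : Gr g) :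
    EE z h Φ j (fun y => f y + g y) = EE z h Φ j f + EE z h Φ j g := by
  induction j generalizing f g with
  | zero => rfl
  | succ j ih =>
    have z0 := H.z0 j hj
    have l := H.lp hj
    rw [EE, EE, EE, ← ih (by omega) (hf.K z0 l _) (hg.K z0 l _)]
    exact congrArg _ (funext fun x => k3_add z0 l hf hg _ x)

theorem EE_mul (c : ℝ) (j : ℕ) (f : ℝ → ℝ) :
    EE z h Φ j (fun y => c * f y) = c * EE z h Φ j f := by
  induction j generalizing f with
  | zero => rfl
  | succ j ih =>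
    rw [EE, EE, ← ih]
    exact congrArg _ (funext fun x => k3_mul _ _ _ _ c x)

theorem Chain.const (H : Chain K B z h Φ) (hj : j ≤ K) (c : ℝ) : EE z h Φ j (fun _ => c) = c := by
  induction j with
  | zero => rfl
  | succ j ih =>
    rw [EE, show Kst (z j) (h j) (Φ (j + 1)) (fun _ => c) = fun _ => c from
      funext fun x => k3_const (H.z0 j hj) (H.lp hj) _ c x, ih (by omega)]

theorem Chain.mono (H : Chain K B z h Φ) (hj : j ≤ K) (hf : Gr f) (hg : Gr g)
    (hle : ∀ y, f y ≤ g y) : EE z h Φ j f ≤ EE z h Φ j g := by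
  induction j generalizing f g with
  | zero => exact hle 0
  | succ j ih =>
    have z0 := H.z0 j hj
    have l := H.lp hj
    exact ih (by omega) (hf.K z0 l _) (hg.K z0 l _) fun y => k3_mono z0 l hf hg hle _ y

theorem Chain.d1 (H : Chain K B z h Φ) (hj : j < K) :
    D1 (Φ j) = Kst (z j) (h j) (Φ (j + 1)) (D1 (Φ (j + 1))) := by
  rw [← D1_stp (H.z0 j hj) (H.lp hj), ← H.st j hj]

theorem Chain.G_mono (H : Chain K B z h Φ) (hj : j < K) : GG z h Φ j ≤ GG z h Φ (j + 1) := by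
  have z0 := H.z0 j hj
  have l := H.lp (j := j + 1) hj
  refine H.mono hj.le ((H.lp hj.le).gr1.pow 2) ((l.gr1.pow 2).K z0 l _) fun y => ?_
  rw [H.d1 hj]
  exact K_var_nonneg z0 l l.gr1 _ y

theorem Chain.G_zero (H : Chain K B z h Φ) : GG z h Φ 0 = 0 := by
  obtain ⟨_, hg⟩ := H.gd 0 (Nat.zero_le K)
  have h1 := hg.odd1 0
  rw [neg_zero] at h1
  exact pow_eq_zero_iff two_ne_zero |>.2 (by linarith)

theorem Chain.A_mem (H : Chain K B z h Φ) (hj : j ≤ K) : 0 ≤ AA z h Φ j ∧ AA z h Φ j ≤ 1 := by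
  obtain ⟨_, hg⟩ := H.gd j hj
  exact ⟨(H.const hj 0).ge.trans (H.mono hj (Gr.const 0) hg.gr2 hg.a_nn),
    (H.mono hj hg.gr2 (Gr.const 1) fun y => (le_abs_self _).trans (hg.a_le y)).trans
      (H.const hj 1).le⟩

/-- entropy bound for one step -/
theorem step_kl {ζ v : ℝ} {Ψ : ℝ → ℝ} (hζ : 0 < ζ) (hv : 0 ≤ v) (l : Lp Ψ) (x : ℝ) :
    stp ζ v Ψ x + ζ * v / 2 * Kst ζ v Ψ (D1 Ψ) x ^ 2 ≤ Kst ζ v Ψ Ψ x := by
  set m := Kst ζ v Ψ (D1 Ψ) x with hm
  set S := stp ζ v Ψ x with hS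
  have gx : Gr fun y => y - x := Gr.id.sub (Gr.const x)
  have e1 : Kst ζ v Ψ (fun y => y - x) x = v * (ζ * m) := by
    have := K_stein (f := fun _ => 1) (f' := fun _ => 0) hζ l hv (fun y => hasDerivAt_const y 1)
      (Gr.const 1) (Gr.const 0) x
    simp only [mul_one, one_mul] at this
    rw [this, k3_const hζ l, zero_add]
  have gL : Gr fun y => ζ * m * (y - x) - (ζ * m) ^ 2 * v / 2 - ζ * (Ψ y - S) + 1 :=
    (((((Gr.const _).mul gx).sub (Gr.const _)).sub
      ((Gr.const _).mul (l.gr.sub (Gr.const _))))).add (Gr.const _)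
  have e2 : Kst ζ v Ψ (fun y => ζ * m * (y - x) - (ζ * m) ^ 2 * v / 2 - ζ * (Ψ y - S) + 1) x ≤ 1 := by
    rw [Kst_eq hζ l gL.1]
    have i2 : Integrable (fun w => exp (ζ * m * √v * w - (ζ * m) ^ 2 * v / 2)) γ1 := by
      simp only [exp_sub]
      exact (integrable_exp_mul_gaussianReal (μ := 0) (v := 1) (ζ * m * √v)).div_const _
    have e3 : ∫ w, exp (ζ * m * √v * w - (ζ * m) ^ 2 * v / 2) ∂γ1 = 1 := by
      have := cm (fun _ => 1) (-(ζ * m * √v))
      simp only [one_mul, integral_const, probReal_univ, smul_eq_mul] at this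
      rw [this]
      refine integral_congr_ae (ae_of_all _ fun w => congrArg exp ?_)
      have := sq_sqrt hv
      linear_combination (ζ * m) ^ 2 / 2 * this
    refine le_of_le_of_eq (integral_mono (K5_int ((K5_exp l ζ S).mul gL) v x) i2 fun w => ?_) e3
    have h1 := add_one_le_exp (ζ * m * (x + √v * w - x) - (ζ * m) ^ 2 * v / 2 -
      ζ * (Ψ (x + √v * w) - S))
    refine (mul_le_mul_of_nonneg_left h1 (exp_pos _).le).trans_eq ?_
    rw [← exp_add]
    exact congrArg exp (by ring)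
  rw [k3_lin hζ l gx l.gr gx gx gx (1 - (ζ * m) ^ 2 * v / 2 + ζ * S) (ζ * m) (-ζ) 0 0 0 v x
    fun y => by ring, e1] at e2
  refine le_of_mul_le_mul_left ?_ hζ
  linarith

theorem gd_tan {μ : ℝ} {Ψ : ℝ → ℝ} (hg : Gd B B μ Ψ) (x : ℝ) : Ψ x ≤ Ψ 0 + x * D1 Ψ x := by
  have mo : Monotone (D1 Ψ) := monotone_of_deriv_nonneg hg.d1 hg.a_nn
  rcases lt_trichotomy x 0 with hx | rfl | hx
  · obtain ⟨c, hc, e⟩ := exists_deriv_eq_slope Ψ hx hg.d0.continuous.continuousOn
      hg.d0.differentiableOn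
    have := mo hc.1.le
    rw [D1, e, le_div_iff₀ (by linarith)] at this
    unfold D1
    linarith
  · simp
  · obtain ⟨c, hc, e⟩ := exists_deriv_eq_slope Ψ hx hg.d0.continuous.continuousOn
      hg.d0.differentiableOn
    have := mo hc.2.le
    rw [D1, e, div_le_iff₀ (by linarith)] at this
    unfold D1
    linarith

/-- the value inequality along a chain -/
theorem Chain.value (H : Chain K B z h Φ) : Φ 0 0 ≤ Φ K 0 + ∑ j ∈ range K,
    h j * (AA z h Φ (j + 1) + z j * (GG z h Φ (j + 1) - GG z h Φ j / 2)) := by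
  have key : ∀ j ≤ K, Φ 0 0 + EE z h Φ j (fun x => x * D1 (Φ j) x) ≤ EE z h Φ j (Φ j) +
      ∑ j ∈ range j, h j * (AA z h Φ (j + 1) + z j * (GG z h Φ (j + 1) - GG z h Φ j / 2)) := by
    intro j hj
    induction j with
    | zero => simp [EE]
    | succ j ih =>
      have ih := ih (by omega)
      have z0 := H.z0 j hj
      have h0 := H.h0 j hj
      obtain ⟨_, hg⟩ := H.gd (j + 1) hj
      have l := hg.toLp
      have l' := H.lp (j := j) (by omega)
      have e1 : EE z h Φ j (Φ j) + z j * h j / 2 * GG z h Φ j ≤ EE z h Φ (j + 1) (Φ (j + 1)) := by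
        rw [GG, ← EE_mul, ← H.add (by omega) l'.gr ((Gr.const _).mul (l'.gr1.pow 2))]
        refine H.mono (by omega) (l'.gr.add ((Gr.const _).mul (l'.gr1.pow 2))) (l.gr.K z0 l _)
          fun y => ?_
        have := step_kl z0 h0 l y
        rwa [← H.d1 hj, ← H.st j hj] at this
      have e2 : EE z h Φ (j + 1) (fun x => x * D1 (Φ (j + 1)) x) =
          EE z h Φ j (fun x => x * D1 (Φ j) x) +
            (h j * AA z h Φ (j + 1) + h j * z j * GG z h Φ (j + 1)) := by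
        have g1 := (Gr.const (h j)).mul (hg.gr2.K z0 l (h j))
        have g2 := (Gr.const (h j * z j)).mul ((l.gr1.pow 2).K z0 l (h j))
        rw [AA, GG, EE, EE, EE, ← EE_mul, ← EE_mul, ← H.add (by omega) g1 g2,
          ← H.add (by omega) (Gr.id.mul l'.gr1) (g1.add g2)]
        refine congrArg _ (funext fun x => ?_)
        have s := K_stein z0 l h0 (fun y => (hg.d1 y).hasDerivAt) l.gr1 hg.gr2 x
        have gx : Gr fun y => (y - x) * D1 (Φ (j + 1)) y := (Gr.id.sub (Gr.const x)).mul l.gr1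
        rw [k3_lin z0 l gx l.gr1 gx gx gx 0 1 x 0 0 0 (h j) x fun y => by ring, s, H.d1 hj]
        simp only [sq]
        ring
      rw [sum_range_succ, e2]
      linarith
  obtain ⟨_, hg⟩ := H.gd K le_rfl
  have h1 := H.mono le_rfl hg.toLp.gr ((Gr.const _).add (Gr.id.mul hg.toLp.gr1)) (gd_tan hg)
  rw [H.add le_rfl (Gr.const _) (Gr.id.mul hg.toLp.gr1), H.const le_rfl] at h1
  linarith [key K le_rfl]

theorem real_low {G A d : ℕ → ℝ} {c η C : ℝ} (hc : 0 < c) (hC : 0 ≤ C)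
    (h0 : ∀ j < K, 0 ≤ h j) (h1 : ∀ j < K, h j ≤ η) (g0 : ∀ j < K, G j ≤ G (j + 1))
    (g1 : ∀ j < K, G (j + 1) - G j ≤ h j * c ^ 2) (a0 : ∀ j ≤ K, 0 ≤ A j ∧ A j ≤ 1)
    (d0 : ∀ j < K, 0 ≤ d j) (hd : ∀ j < K, d j = h j ∨ (j + 1 < K ∧ h (j + 1) = h j)) :
    c * ∑ j ∈ range K, h j * A (j + 1) - (c ^ 2 * ∑ j ∈ range K, h j - (G K - G 0)) / c -
      c * ∑ j ∈ range K, d j - C * (c * √η) * ∑ j ∈ range K, h j ≤
      ∑ j ∈ range (K - 1), √(G (j + 1) - G j) * (√(h (j + 1)) * A (j + 1) - C * h (j + 1)) := by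
  rcases K with _ | n
  · simp
  have sq1 : ∀ j < n + 1, √(G (j + 1) - G j) ≤ c * √(h j) := fun j hj => by
    rw [← sqrt_sq hc.le, ← sqrt_mul (sq_nonneg c), mul_comm]
    exact sqrt_le_sqrt (g1 j hj)
  have t1 : ∀ j < n + 1, c * (h j * A (j + 1)) - (c ^ 2 * h j - (G (j + 1) - G j)) / c ≤
      (G (j + 1) - G j) * A (j + 1) / c := fun j hj => by
    have := mul_le_mul_of_nonneg_left (a0 (j + 1) hj).2 (sub_nonneg.2 (g1 j hj))
    rw [sub_le_iff_le_add, ← add_div, le_div_iff₀ hc]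
    linarith
  have t2 : ∀ j < n + 1, (G (j + 1) - G j) * A (j + 1) / c ≤ c * h j := fun j hj => by
    have := mul_le_mul_of_nonneg_left (a0 (j + 1) hj).2 (sub_nonneg.2 (g0 j hj))
    rw [div_le_iff₀ hc]
    linarith [g1 j hj]
  have t3 : ∀ j < n + 1, c * (h j * A (j + 1)) - (c ^ 2 * h j - (G (j + 1) - G j)) / c - c * d j ≤
      if j < n then √(G (j + 1) - G j) * (√(h (j + 1)) * A (j + 1)) else 0 := fun j hj => by
    have p := mul_nonneg (sqrt_nonneg (G (j + 1) - G j))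
      (mul_nonneg (sqrt_nonneg (h (j + 1))) (a0 (j + 1) hj).1)
    rcases hd j hj with e | ⟨e1, e⟩
    · have := t1 j hj
      have := t2 j hj
      rw [e]
      split_ifs <;> linarith
    · rw [if_pos (by omega), e]
      refine (sub_le_self _ (mul_nonneg hc.le (d0 j hj))).trans ((t1 j hj).trans ?_)
      have := mul_le_mul_of_nonneg_left (sq1 j hj)
        (mul_nonneg (sqrt_nonneg (G (j + 1) - G j)) (a0 (j + 1) hj).1)
      have e3 := mul_self_sqrt (sub_nonneg.2 (g0 j hj))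
      rw [div_le_iff₀ hc]
      linear_combination this - A (j + 1) * e3
  have s1 := sum_le_sum fun j hj => t3 j (mem_range.1 hj)
  rw [sum_range_succ (fun j => if j < n then _ else _), if_neg (lt_irrefl n), add_zero,
    sum_congr rfl fun j hj => if_pos (mem_range.1 hj), sum_sub_distrib, sum_sub_distrib,
    ← mul_sum, ← mul_sum, ← sum_div, sum_sub_distrib, ← mul_sum, sum_range_sub] at s1
  have s2 : ∑ j ∈ range n, √(G (j + 1) - G j) * (C * h (j + 1)) ≤
      C * (c * √η) * ∑ j ∈ range (n + 1), h j := by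
    rw [sum_range_succ', mul_add, mul_sum]
    refine le_add_of_le_of_nonneg (sum_le_sum fun j hj => ?_)
      (mul_nonneg (by positivity) (h0 0 (by omega)))
    have hj := mem_range.1 hj
    have := (sq1 j (by omega)).trans
      (mul_le_mul_of_nonneg_left (sqrt_le_sqrt (h1 j (by omega))) hc.le)
    have := mul_le_mul_of_nonneg_right this (mul_nonneg hC (h0 (j + 1) (by omega)))
    linarith
  simp only [Nat.add_sub_cancel, mul_sub, sum_sub_distrib]
  linarith

theorem real_up {G s W : ℕ → ℝ} {a κ η : ℝ} (ha : 0 ≤ a) (hκ : 0 ≤ κ)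
    (h0 : ∀ j < K, 0 ≤ h j) (h1 : ∀ j < K, h j ≤ η) (z0 : ∀ j < K, 0 < z j)
    (z1 : ∀ j < K, z j ≤ 1) (s0 : s 0 = 0) (hs : ∀ j < K, s (j + 1) = s j + h j) (G0 : G 0 = 0)
    (GK : G K = a * s K) (g1 : ∀ j < K, G (j + 1) - G j ≤ h j * (a + κ))
    (hW : ∀ j < K, W (j + 1) - W j = z j * (s (j + 1) ^ 2 - s j ^ 2)) :
    ∑ j ∈ range K, h j * (z j * (G (j + 1) - G j / 2)) ≤
      a * (W K - W 0) / 4 + (3 / 4 * a * η + 3 / 2 * κ * s K) * ∑ j ∈ range K, h j := by
  have key : ∀ n i, i + n ≤ K → s i ≤ s (i + n) ∧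
      G (i + n) - G i ≤ (s (i + n) - s i) * (a + κ) := by
    intro n i hn
    induction n with
    | zero => simp
    | succ n ih =>
      obtain ⟨i1, i2⟩ := ih (by omega)
      have := h0 (i + n) (by omega)
      have := g1 (i + n) (by omega)
      rw [← add_assoc, hs (i + n) (by omega)]
      constructor <;> linarith
  have bd : ∀ j ≤ K, G j ≤ a * s j + κ * s K ∧ a * s j - κ * s K ≤ G j ∧ 0 ≤ s K := fun j hj => by
    obtain ⟨p1, p2⟩ := key j 0 (by omega)
    obtain ⟨p3, p4⟩ := key (K - j) j (by omega)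
    rw [zero_add, s0] at p1 p2
    rw [show j + (K - j) = K by omega] at p3 p4
    have := mul_le_mul_of_nonneg_left p3 hκ
    have := mul_nonneg hκ p1
    refine ⟨by linarith, by linarith, by linarith⟩
  rw [← sum_range_sub, mul_sum, sum_div, mul_sum, ← sum_add_distrib]
  refine sum_le_sum fun j hj => ?_
  have hj := mem_range.1 hj
  obtain ⟨b1, -, b0⟩ := bd (j + 1) hj
  obtain ⟨-, b2, -⟩ := bd j hj.le
  have p0 := h0 j hj
  have q1 := mul_le_mul_of_nonneg_left (h1 j hj) ha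
  have q0 : 0 ≤ 3 / 4 * a * η + 3 / 2 * κ * s K := by
    have := mul_nonneg ha p0
    have := mul_nonneg hκ b0
    linarith
  have q2 : G (j + 1) - G j / 2 ≤ a * (2 * s j + h j) / 4 + (3 / 4 * a * η + 3 / 2 * κ * s K) := by
    rw [hs j hj] at b1
    linarith
  have q3 := mul_le_mul_of_nonneg_left q2 (mul_nonneg p0 (z0 j hj).le)
  have q4 := mul_le_mul_of_nonneg_left (z1 j hj) (mul_nonneg q0 p0)
  rw [hW j hj, hs j hj]
  linarith

end Vale.Agent.P367A
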