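import Vale.Agent.P367A.A1a

/-! Monotone transport of the standard Gaussian law to a tilted step. -/

namespace Vale.Agent.P367A

open MeasureTheory ProbabilityTheory Real Set Filter Topology Vale.Agent.P146M Vale.Agent.P146
  Vale.Agent.P146L

variable {ζ v : ℝ} {Ψ : ℝ → ℝ}

theorem N_cont : Continuous (cdf γ1) := by
  refine continuous_iff_continuousAt.2 fun a => continuousAt_iff_continuous_left'_right'.2
    ⟨(monotone_cdf γ1).continuousWithinAt_Iio_iff_leftLim_eq.2 ?_,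
      ((cdf γ1).right_continuous a).mono Ioi_subset_Ici_self⟩
  have h := (cdf γ1).measure_singleton a
  have := nullSingletonClass_gaussianReal (μ := 0) one_ne_zero
  rw [measure_cdf, measure_singleton, eq_comm, ENNReal.ofReal_eq_zero] at h
  exact le_antisymm ((monotone_cdf γ1).leftLim_le le_rfl) (by linarith)

theorem N_lt : StrictMono (cdf γ1) := fun a b hab => by
  have h := (cdf γ1).measure_Ioc a b
  rw [measure_cdf] at h
  refine lt_of_not_ge fun hle => ?_
  rw [ENNReal.ofReal_eq_zero.2 (by linarith)] at h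
  have := gaussianReal_absolutelyContinuous' 0 one_ne_zero h
  rw [volume_Ioc, ENNReal.ofReal_eq_zero] at this
  linarith

theorem N_law {c : ℝ} (c0 : 0 ≤ c) (c1 : c ≤ 1) :
    γ1 {g | cdf γ1 g ≤ c} = ENNReal.ofReal c := by
  rcases c0.eq_or_lt with rfl | c0
  · rw [show {g | cdf γ1 g ≤ 0} = ∅ from eq_empty_of_forall_notMem fun g hg => by
      linarith [N_lt (sub_one_lt g), cdf_nonneg γ1 (g - 1), show cdf γ1 g ≤ 0 from hg]]
    simp
  rcases c1.eq_or_lt with rfl | c1
  · rw [show {g | cdf γ1 g ≤ 1} = univ from eq_univ_of_forall fun g => cdf_le_one γ1 g]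
    simp
  obtain ⟨a, ha⟩ := ((tendsto_cdf_atBot γ1).eventually (ge_mem_nhds c0)).exists
  obtain ⟨b, hb⟩ := ((tendsto_cdf_atTop γ1).eventually (le_mem_nhds c1)).exists
  obtain ⟨g, rfl⟩ := mem_range_of_exists_le_of_exists_ge N_cont ⟨a, ha⟩ ⟨b, hb⟩
  rw [ofReal_cdf]
  exact congrArg _ (Set.ext fun x => N_lt.le_iff_le)

theorem dom_low {p q : ℝ → ℝ} (hp : Integrable p γ1) (hq : Integrable q γ1)
    (e : ∫ w, p w ∂γ1 = ∫ w, q w ∂γ1) (h : ∀ w w', w ≤ w' → q w' ≤ p w' → q w ≤ p w) {L : Set ℝ}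
    (hL : MeasurableSet L) (lo : IsLowerSet L) : ∫ w in L, q w ∂γ1 ≤ ∫ w in L, p w ∂γ1 := by
  by_cases h1 : ∀ w ∈ L, q w ≤ p w
  · exact setIntegral_mono_on hq.integrableOn hp.integrableOn hL h1
  push Not at h1
  obtain ⟨w, hw, h1⟩ := h1
  have h2 := setIntegral_mono_on hp.integrableOn hq.integrableOn hL.compl fun w' hw' =>
    le_of_not_ge fun h3 => (h w w' (le_of_not_ge fun h4 => hw' (lo h4 hw)) h3).not_gt h1
  linarith [integral_add_compl hL hp, integral_add_compl hL hq]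

theorem shift_int (a : ℝ) : Integrable (fun w => exp (a * w - a ^ 2 / 2)) γ1 ∧
    ∀ L : Set ℝ, MeasurableSet L →
      ∫ w in L, exp (a * w - a ^ 2 / 2) ∂γ1 = γ1.real {w | w + a ∈ L} := by
  refine ⟨?_, fun L hL => ?_⟩
  · simp only [exp_sub]
    exact (integrable_exp_mul_gaussianReal (μ := 0) (v := 1) a).div_const _
  have m : MeasurableSet {w | w + a ∈ L} := measurable_add_const a hL
  rw [← integral_indicator_one m, cm _ (-a), ← integral_indicator hL]
  refine integral_congr_ae (ae_of_all _ fun w => ?_)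
  by_cases hw : w ∈ L <;> simp [hw]

theorem cdf_Km (hζ : 0 < ζ) (l : Lp Ψ) (x y : ℝ) : cdf (Km ζ v Ψ x) y =
    ∫ w in {w | x + √v * w ≤ y}, exp (ζ * (Ψ (x + √v * w) - stp ζ v Ψ x)) ∂γ1 := by
  have := Km_prob hζ l v x
  have m : MeasurableSet {w | x + √v * w ≤ y} := measurableSet_le (by fun_prop) (by fun_prop)
  rw [cdf_eq_real, ← integral_indicator_one measurableSet_Iic, ← Kst,
    Kst_eq hζ l (measurable_one.indicator measurableSet_Iic), ← integral_indicator m]
  refine integral_congr_ae (ae_of_all _ fun w => ?_)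
  by_cases hw : x + √v * w ≤ y <;> simp [hw]

theorem cdf_dom (hζ : 0 < ζ) (hζ1 : ζ ≤ 1) (hv : 0 ≤ v) (l : Lp Ψ) (x y g : ℝ) :
    (x + √v * g + v ≤ y → cdf γ1 g ≤ cdf (Km ζ v Ψ x) y) ∧
    (cdf γ1 g ≤ cdf (Km ζ v Ψ x) y → x + √v * g - v ≤ y) := by
  have s0 := sqrt_nonneg v
  have s2 := mul_self_sqrt hv
  have m : MeasurableSet {w | x + √v * w ≤ y} := measurableSet_le (by fun_prop) (by fun_prop)
  have lo : IsLowerSet {w | x + √v * w ≤ y} := fun a b hab ha =>
    le_trans (by gcongr) (show x + √v * a ≤ y from ha)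
  have iW := K5_int (K5_exp l ζ (stp ζ v Ψ x)) v x
  have eW : ∀ a : ℝ, ∫ w, exp (ζ * (Ψ (x + √v * w) - stp ζ v Ψ x)) ∂γ1 =
      ∫ w, exp (a * w - a ^ 2 / 2) ∂γ1 := fun a => by
    have h1 := Kst_eq hζ l (f := fun _ => 1) measurable_const v x
    have h2 := (shift_int a).2 univ MeasurableSet.univ
    simp only [k3_const hζ l, mul_one] at h1
    simp only [Measure.restrict_univ, mem_univ, ofPred_true, probReal_univ] at h2
    rw [← h1, h2]
  have lip : ∀ w w', w ≤ w' → |ζ * (Ψ (x + √v * w) - Ψ (x + √v * w'))| ≤ √v * (w' - w) := by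
    intro w w' hw
    have h1 := l.lip (x + √v * w) (x + √v * w')
    rw [show x + √v * w - (x + √v * w') = -(√v * (w' - w)) by ring, abs_neg,
      abs_of_nonneg (mul_nonneg s0 (sub_nonneg.2 hw))] at h1
    rw [abs_mul, abs_of_pos hζ]
    exact (mul_le_of_le_one_left (abs_nonneg _) hζ1).trans h1
  rw [cdf_Km hζ l]
  refine ⟨fun h => ?_, fun h => le_of_not_gt fun h1 => ?_⟩
  · refine le_trans ?_ (dom_low iW (shift_int √v).1 (eW _) (fun w w' hw h3 => ?_) m lo)
    · rw [(shift_int √v).2 _ m, cdf_eq_real]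
      refine measureReal_mono fun w hw => ?_
      have := mul_le_mul_of_nonneg_left (show w ≤ g from hw) s0
      show x + √v * (w + √v) ≤ y
      linarith
    · rw [exp_le_exp] at h3 ⊢
      linarith [(abs_le.1 (lip w w' hw)).1]
  · have h2 := h.trans (dom_low (shift_int (-√v)).1 iW (eW _).symm (fun w w' hw h3 => ?_) m lo)
    · obtain ⟨d, d0, hd⟩ : ∃ d, 0 < d ∧ √v * d < x + √v * g - v - y :=
        exists_pos_mul_lt (by linarith) _
      rw [(shift_int (-√v)).2 _ m] at h2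
      refine (N_lt (sub_lt_self g d0)).not_ge (h2.trans ?_)
      rw [cdf_eq_real]
      refine measureReal_mono fun w hw => mem_Iic.2 (le_of_not_gt fun h4 => ?_)
      have := mul_le_mul_of_nonneg_left h4.le s0
      have : x + √v * (w + -√v) ≤ y := hw
      linarith
    · rw [exp_le_exp] at h3 ⊢
      linarith [(abs_le.1 (lip w w' hw)).2]

theorem transport (hζ : 0 < ζ) (hζ1 : ζ ≤ 1) (hv : 0 ≤ v) (l : Lp Ψ) : ∃ T : ℝ → ℝ → ℝ,
    Measurable (Function.uncurry T) ∧ (∀ x, γ1.map (T x) = Km ζ v Ψ x) ∧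
      ∀ x g, |T x g - (x + √v * g)| ≤ v := by
  set T : ℝ → ℝ → ℝ := fun x g => sInf {y | cdf γ1 g ≤ cdf (Km ζ v Ψ x) y} with hT
  have D := cdf_dom hζ hζ1 hv l
  have bd : ∀ x g, BddBelow {y | cdf γ1 g ≤ cdf (Km ζ v Ψ x) y} := fun x g =>
    ⟨_, fun y hy => (D x y g).2 hy⟩
  have ne : ∀ x g, {y | cdf γ1 g ≤ cdf (Km ζ v Ψ x) y}.Nonempty := fun x g =>
    ⟨_, (D x _ g).1 le_rfl⟩
  have key : ∀ x g y, T x g ≤ y ↔ cdf γ1 g ≤ cdf (Km ζ v Ψ x) y := fun x g y => by
    refine ⟨fun h => ?_, fun h => csInf_le (bd x g) h⟩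
    refine ge_of_tendsto (((cdf (Km ζ v Ψ x)).right_continuous y).mono Ioi_subset_Ici_self)
      (eventually_nhdsWithin_of_forall fun t ht => ?_)
    obtain ⟨t', h1, h2⟩ := exists_lt_of_csInf_lt (ne x g) (h.trans_lt ht)
    exact le_trans h1 (monotone_cdf _ h2.le)
  have mT : Measurable (Function.uncurry T) := measurable_of_Iic fun y => by
    have h1 : Measurable fun x => cdf (Km ζ v Ψ x) y := by
      have h2 := ((Gr.bdd (f := (Iic y).indicator 1) (measurable_one.indicator measurableSet_Iic)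
        (C := 1) fun t => by by_cases ht : t ≤ y <;> simp [ht]).K hζ l v).1
      rwa [show (fun x => cdf (Km ζ v Ψ x) y) = Kst ζ v Ψ ((Iic y).indicator 1) from
        funext fun x => by
          have := Km_prob hζ l v x
          rw [cdf_eq_real, Kst, integral_indicator_one measurableSet_Iic]]
    rw [show Function.uncurry T ⁻¹' Iic y = {p | cdf γ1 p.2 ≤ cdf (Km ζ v Ψ p.1) y} from
      Set.ext fun p => key p.1 p.2 y]
    exact measurableSet_le (N_cont.measurable.comp measurable_snd) (h1.comp measurable_fst)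
  refine ⟨T, mT, fun x => ?_, fun x g => abs_le.2 ⟨?_, ?_⟩⟩
  · have := Km_prob hζ l v x
    refine Measure.ext_of_Iic _ _ fun y => ?_
    rw [Measure.map_apply mT.of_uncurry_left measurableSet_Iic, ← ofReal_cdf (Km ζ v Ψ x),
      ← N_law (cdf_nonneg _ y) (cdf_le_one _ y)]
    exact congrArg _ (Set.ext fun g => key x g y)
  · linarith [(D x _ g).2 ((key x g _).1 le_rfl)]
  · linarith [(key x g _).2 ((D x _ g).1 le_rfl)]

theorem local_est {B μ x : ℝ} {T : ℝ → ℝ} (hζ : 0 < ζ) (hv : 0 ≤ v) (hv1 : v ≤ 1)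
    (hg : Gd B B μ Ψ) (mT : Measurable T) (hT : γ1.map T = Km ζ v Ψ x)
    (hb : ∀ g, |T g - (x + √v * g)| ≤ v) :
    √v * D2 (stp ζ v Ψ) x - 4 * v ≤ ∫ g, g * D1 Ψ (T g) ∂γ1 := by
  have l := hg.toLp
  have i0 : Integrable (fun g : ℝ => g) γ1 := IsGaussian.integrable_id
  have e0 : ∫ g, g ∂γ1 = 0 := integral_id_gaussianReal
  rcases hv.eq_or_lt with rfl | hv'
  · have : ∀ g, T g = x := fun g => by simpa [sub_eq_zero] using hb g
    simp [this, integral_mul_const, e0]
  have s0 := sqrt_pos.2 hv'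
  have s2 := mul_self_sqrt hv
  have s1 : v ≤ √v := le_sqrt_of_sq_le (by nlinarith)
  have tr : ∀ f, Gr f → Integrable (fun g => f (T g)) γ1 ∧ ∫ g, f (T g) ∂γ1 = Kst ζ v Ψ f x :=
    fun f hf => ⟨(integrable_map_measure hf.1.aestronglyMeasurable mT.aemeasurable).1
      (hT ▸ hf.int hζ l v x), by
        rw [Kst, ← hT, integral_map mT.aemeasurable hf.1.aestronglyMeasurable]⟩
  set m := Kst ζ v Ψ (D1 Ψ) x with hm
  have ia : Integrable (fun g : ℝ => √v * (|g| + 1)) γ1 :=
    (i0.abs.add (integrable_const 1)).const_mul _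
  have ea : ∫ g : ℝ, √v * (|g| + 1) ∂γ1 ≤ 2 * √v := by
    rw [integral_const_mul, integral_add i0.abs (integrable_const 1), mul_comm]
    simp only [integral_const, probReal_univ, smul_eq_mul, mul_one]
    exact mul_le_mul_of_nonneg_right (by linarith [int_abs_le]) s0.le
  have b1 : ∀ g, |D1 Ψ (T g) - D1 Ψ x| ≤ √v * (|g| + 1) := fun g => by
    have := abs_add_le (T g - (x + √v * g)) (√v * g)
    rw [abs_mul, abs_of_pos s0, show T g - (x + √v * g) + √v * g = T g - x by ring] at this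
    linarith [hg.lip1 (T g) x, hb g]
  have b2 : |m - D1 Ψ x| ≤ 2 * √v := by
    refine le_of_eq_of_le ?_ ((k6_abs ia b1).trans ea)
    rw [integral_sub (tr _ l.gr1).1 (integrable_const _), (tr _ l.gr1).2]
    simp [hm]
  have g1 : Gr fun y => D1 Ψ y - m := l.gr1.sub (Gr.const m)
  have g2 : Gr fun y => (y - x) * (D1 Ψ y - m) := (Gr.id.sub (Gr.const x)).mul g1
  have e1 := K_stein hζ l hv (fun y => (hg.d1 y).hasDerivAt.sub_const m) g1 hg.gr2 x
  rw [k3_lin hζ l (l.gr1.pow 2) l.gr1 g1 g1 g1 0 1 (-m) 0 0 0 v x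
    (f := fun y => (D1 Ψ y - m) * D1 Ψ y) fun y => by ring, ← (tr _ g2).2] at e1
  have e2 : D2 (stp ζ v Ψ) x = _ := (D2_stp hζ l hg.d1 hg.gr2 v x).deriv
  have i1 : Integrable (fun g => g * D1 Ψ (T g)) γ1 :=
    i0.mul_bdd (tr _ l.gr1).1.1 (ae_of_all _ fun g => l.b0 _)
  have i2 : Integrable (fun g : ℝ => v * (√v * (|g| + 1) + 2 * √v)) γ1 :=
    (ia.add (integrable_const _)).const_mul _
  have h3 := integral_mono ((tr _ g2).1.sub i2) ((i1.const_mul √v).sub (i0.const_mul (√v * m)))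
    fun g => by
      have a1 := abs_sub_le (D1 Ψ (T g)) (D1 Ψ x) m
      rw [abs_sub_comm (D1 Ψ x)] at a1
      have a2 := mul_le_mul (hb g) (a1.trans (add_le_add (b1 g) b2)) (abs_nonneg _) hv
      rw [← abs_mul] at a2
      simp only [Pi.sub_apply]
      linarith [le_abs_self ((T g - (x + √v * g)) * (D1 Ψ (T g) - m))]
  simp only [Pi.sub_apply] at h3
  rw [integral_sub (tr _ g2).1 i2, integral_sub (i1.const_mul _) (i0.const_mul _),
    integral_const_mul, integral_const_mul, integral_const_mul, integral_add ia (integrable_const _),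
    e0, e1] at h3
  simp only [integral_const, probReal_univ, smul_eq_mul, one_mul] at h3
  have h4 := mul_le_mul_of_nonneg_left ea hv
  refine le_of_mul_le_mul_left ?_ s0
  rw [e2, mul_sub, ← mul_assoc, s2, ← hm]
  unfold D2 at *
  linarith

end Vale.Agent.P367A
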