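import Vale.Agent.P367A.A1
import Vale.Agent.P367A.A3a
import Vale.Agent.P367.Defs43

/-! The message passing program of a chain, and part A. -/

namespace Vale.Agent.P367A

open MeasureTheory ProbabilityTheory Real Finset Function Vale.Agent.P146M Vale.Agent.P146
  Vale.Agent.P146L Vale.Agent.P367

noncomputable section

variable {K j : ℕ} {B : ℝ} {z h : ℕ → ℝ} {Φ : ℕ → ℝ → ℝ} {T : ℕ → ℝ → ℝ → ℝ}
  {φ : (Fin K → ℝ) → ℝ}

instance : IsProbabilityMeasure (gk K) := by unfold gk; infer_instance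

theorem mp_upd (i : Fin K) : MeasurePreserving (fun p : (Fin K → ℝ) × ℝ => update p.1 i p.2)
    ((gk K).prod γ1) (gk K) := by
  refine ⟨measurable_update', (Measure.pi_eq fun s hs => ?_).symm⟩
  rw [Measure.map_apply measurable_update' (MeasurableSet.univ_pi hs)]
  have : (fun p : (Fin K → ℝ) × ℝ => update p.1 i p.2) ⁻¹' Set.univ.pi s =
      (Set.univ.pi (update s i Set.univ)) ×ˢ s i := by
    ext ⟨g, e⟩
    simp only [Set.mem_preimage, Set.mem_pi, Set.mem_univ, true_imp_iff, Set.mem_prod]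
    constructor
    · intro h
      refine ⟨fun a => ?_, by simpa using h i⟩
      by_cases hi : a = i
      · subst hi; simp
      · simpa [update_of_ne hi] using h a
    · rintro ⟨h1, h2⟩ a
      by_cases hi : a = i
      · subst hi; simpa using h2
      · simpa [update_of_ne hi] using h1 a
  rw [this, Measure.prod_prod, gk, Measure.pi_pi, ← prod_erase_mul _ _ (mem_univ i),
    ← prod_erase_mul _ (fun a => γ1 (s a)) (mem_univ i)]
  simp only [update_self, measure_univ, mul_one]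
  congr 1
  exact prod_congr rfl fun a hi => by rw [update_of_ne (ne_of_mem_erase hi)]

theorem imul {f g : (Fin K → ℝ) → ℝ} (hf : MemLp f 2 (gk K)) (hg : MemLp g 2 (gk K)) :
    Integrable (fun x => f x * g x) (gk K) := hf.integrable_mul hg

/-- coordinates -/
def co (j : ℕ) (x : Fin K → ℝ) : ℝ := if h : j < K then x ⟨j, h⟩ else 0

/-- the field after `j` steps -/
def XX (T : ℕ → ℝ → ℝ → ℝ) : ℕ → (Fin K → ℝ) → ℝ
  | 0, _ => 0
  | j + 1, x => T j (XX T j x) (co j x)

/-- depends only on the coordinates below `j` -/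
def Ad (j : ℕ) (φ : (Fin K → ℝ) → ℝ) : Prop :=
  ∀ x y, (∀ i : Fin K, (i : ℕ) < j → x i = y i) → φ x = φ y

theorem Ad.mono {i : ℕ} (H : Ad i φ) (hi : i ≤ j) : Ad j φ :=
  fun x y e => H x y fun a ha => e a (ha.trans_le hi)

theorem ad_co : Ad (K := K) (j + 1) (co j) := fun x y e => by
  unfold co
  split_ifs with hj
  · exact e ⟨j, hj⟩ j.lt_succ_self
  · rfl

theorem ad_XX : Ad (K := K) j (XX T j) := by
  induction j with
  | zero => exact fun _ _ _ => rfl
  | succ j ih => exact fun x y e => by rw [XX, XX, ih.mono j.le_succ x y e, ad_co x y e]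

theorem meas_co : Measurable (co (K := K) j) := by
  unfold co
  split_ifs
  · exact measurable_pi_apply _
  · exact measurable_const

theorem l2_co : MemLp (co (K := K) j) 2 (gk K) := by
  unfold co
  split_ifs with hj
  · exact (memLp_id_gaussianReal (μ := 0) (v := 1) 2).comp_measurePreserving
      (measurePreserving_eval (fun _ : Fin K => γ1) ⟨j, hj⟩)
  · exact memLp_const 0

theorem cond (hj : j < K) (H : Ad j φ) {F : ℝ → ℝ → ℝ}
    (hi : Integrable (fun x => φ x * F (XX T j x) (co j x)) (gk K)) :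
    ∫ x, φ x * F (XX T j x) (co j x) ∂gk K = ∫ x, φ x * ∫ t, F (XX T j x) t ∂γ1 ∂gk K := by
  have mp := mp_upd (⟨j, hj⟩ : Fin K)
  have h1 := integral_map mp.measurable.aemeasurable (mp.map_eq.symm ▸ hi.1)
  rw [mp.map_eq] at h1
  refine h1.trans ((integral_prod _ (mp.integrable_comp_of_integrable hi)).trans ?_)
  refine integral_congr_ae (ae_of_all _ fun x => ?_)
  simp only [← integral_const_mul]
  refine integral_congr_ae (ae_of_all _ fun t => ?_)
  have e : ∀ i : Fin K, (i : ℕ) < j → update x ⟨j, hj⟩ t i = x i := fun i hi =>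
    update_of_ne (fun e => hi.ne (congrArg Fin.val e)) _ _
  simp only [comp_apply, H _ _ e, ad_XX _ _ e, co, dif_pos hj, update_self]

theorem orth_co (hj : j < K) (H : Ad j φ) (h2 : MemLp φ 2 (gk K)) :
    ∫ x, φ x * co j x ∂gk K = 0 := by
  have := cond (T := fun _ _ _ => 0) (F := fun _ t => t) hj H (h2.integrable_mul l2_co)
  simpa using this

theorem sq_co (hj : j < K) : ∫ x, co j x * co j x ∂gk K = 1 := by
  have := cond (T := fun _ _ _ => 0) (φ := fun _ => 1) (F := fun _ t => t * t) hj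
    (fun _ _ _ => rfl) ((l2_co.integrable_mul l2_co).const_mul 1)
  have e : ∫ t : ℝ, t * t ∂γ1 = 1 := by simpa [sq] using int_sq
  simpa [e] using this

/-- transport maps along a chain -/
structure Tr (K : ℕ) (B : ℝ) (z h : ℕ → ℝ) (Φ : ℕ → ℝ → ℝ) (T : ℕ → ℝ → ℝ → ℝ) : Prop
    extends Chain K B z h Φ where
  ms : ∀ j < K, Measurable (uncurry (T j))
  law : ∀ j < K, ∀ x, γ1.map (T j x) = Km (z j) (h j) (Φ (j + 1)) x
  cl : ∀ j < K, ∀ x g, |T j x g - (x + √(h j) * g)| ≤ h j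

theorem Tr.meas (H : Tr K B z h Φ T) (hj : j ≤ K) : Measurable (XX (K := K) T j) := by
  induction j with
  | zero => exact measurable_const
  | succ j ih => exact (H.ms j hj).comp ((ih (by omega)).prodMk meas_co)

theorem Tr.int (H : Tr K B z h Φ T) (hj : j < K) {f : ℝ → ℝ} (hf : Measurable f) (y : ℝ) :
    ∫ t, f (T j y t) ∂γ1 = Kst (z j) (h j) (Φ (j + 1)) f y := by
  rw [Kst, ← H.law j hj, integral_map (H.ms j hj).of_uncurry_left.aemeasurable
    hf.aestronglyMeasurable]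

theorem Tr.l2 (H : Tr K B z h Φ T) (hj : j ≤ K) {f : ℝ → ℝ} (hf : Measurable f) {C : ℝ}
    (hb : ∀ y, |f y| ≤ C) : MemLp (fun x => f (XX T j x)) 2 (gk K) :=
  MemLp.of_bound (hf.comp (H.meas hj)).aestronglyMeasurable C (ae_of_all _ fun _ => hb _)

theorem Tr.ee (H : Tr K B z h Φ T) (hj : j ≤ K) {f : ℝ → ℝ} (hf : Measurable f) {C : ℝ}
    (hb : ∀ y, |f y| ≤ C) : ∫ x, f (XX T j x) ∂gk K = EE z h Φ j f := by
  induction j generalizing f with
  | zero => simp [XX, EE]
  | succ j ih =>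
    have z0 := H.z0 j hj
    have l := H.toChain.lp hj
    have := cond (T := T) (φ := fun _ => 1) (F := fun y t => f (T j y t)) hj (fun _ _ _ => rfl)
      (((H.l2 hj hf hb).integrable one_le_two).const_mul 1)
    simp only [one_mul, H.int hj hf] at this
    rw [EE, ← ih (by omega) ((Gr.bdd hf hb).K z0 l _).1 (abs_Kst_le z0 l hb _), ← this]
    rfl

/-- the magnetisation martingale -/
def MM (Φ : ℕ → ℝ → ℝ) (T : ℕ → ℝ → ℝ → ℝ) (j : ℕ) (x : Fin K → ℝ) : ℝ := D1 (Φ j) (XX T j x)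

theorem ad_MM : Ad (K := K) j (MM Φ T j) := fun x y e => by rw [MM, MM, ad_XX x y e]

theorem Tr.l2M (H : Tr K B z h Φ T) (hj : j ≤ K) : MemLp (MM Φ T j) 2 (gk K) :=
  H.l2 hj (measurable_deriv _) (H.toChain.lp hj).b0

theorem Tr.mart (H : Tr K B z h Φ T) {i : ℕ} (hi : i ≤ j) (hj : j ≤ K) (ha : Ad i φ)
    (h2 : MemLp φ 2 (gk K)) : ∫ x, φ x * MM Φ T j x ∂gk K = ∫ x, φ x * MM Φ T i x ∂gk K := by
  induction j, hi using Nat.le_induction with
  | base => rfl
  | succ j hi ih =>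
    have := cond (T := T) (F := fun y t => D1 (Φ (j + 1)) (T j y t)) hj (ha.mono hi)
      (h2.integrable_mul (H.l2M hj))
    simp only [H.int hj (measurable_deriv _), ← H.toChain.d1 hj] at this
    rw [← ih (by omega)]
    exact this

theorem Tr.gM (H : Tr K B z h Φ T) (hj : j < K) :
    √(h j) * AA z h Φ j - 4 * h j ≤ ∫ x, co j x * MM Φ T K x ∂gk K := by
  obtain ⟨_, hg⟩ := H.gd (j + 1) hj
  obtain ⟨_, hg'⟩ := H.gd j hj.le
  have := cond (T := T) (φ := fun _ => 1) (F := fun y t => t * D1 (Φ (j + 1)) (T j y t)) hj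
    (fun _ _ _ => rfl) ((l2_co.integrable_mul (H.l2M hj)).const_mul 1)
  simp only [one_mul] at this
  have i1 := (H.l2 hj.le hg'.gr2.1 hg'.a_le).integrable one_le_two
  have m : Measurable fun y => ∫ t, t * D1 (Φ (j + 1)) (T j y t) ∂γ1 :=
    (StronglyMeasurable.integral_prod_right' (ν := γ1)
      (f := fun p : ℝ × ℝ => p.2 * D1 (Φ (j + 1)) (T j p.1 p.2)) (measurable_snd.mul
        ((measurable_deriv _).comp (H.ms j hj))).stronglyMeasurable).measurable
  have i2 := (H.l2 hj.le m (C := 1) fun y => (k6_abs (g := fun t => |t|)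
    (IsGaussian.integrable_id (μ := γ1)).abs fun t => by
      rw [abs_mul]
      exact mul_le_of_le_one_right (abs_nonneg _) (hg.b0 _)).trans int_abs_le).integrable one_le_two
  have h3 := integral_mono ((i1.const_mul √(h j)).sub (integrable_const (4 * h j))) i2 fun x => by
    have := local_est (H.z0 j hj) (H.h0 j hj) (H.h1 j hj) hg (H.ms j hj).of_uncurry_left
      (H.law j hj (XX T j x)) (H.cl j hj _)
    rwa [← H.st j hj] at this
  simp only [Pi.sub_apply] at h3
  rw [integral_sub (i1.const_mul _) (integrable_const _), integral_const_mul,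
    H.ee hj.le hg'.gr2.1 hg'.a_le, ← this] at h3
  rw [H.mart hj le_rfl ad_co l2_co]
  simp only [integral_const, probReal_univ, smul_eq_mul, one_mul] at h3
  exact h3

/-- increments -/
def DD (Φ : ℕ → ℝ → ℝ) (T : ℕ → ℝ → ℝ → ℝ) (j : ℕ) (x : Fin K → ℝ) : ℝ :=
  MM Φ T (j + 1) x - MM Φ T j x

theorem ad_DD : Ad (K := K) (j + 1) (DD Φ T j) := fun x y e => by
  rw [DD, DD, ad_MM x y e, ad_MM.mono j.le_succ x y e]

theorem Tr.l2D (H : Tr K B z h Φ T) (hj : j < K) : MemLp (DD Φ T j) 2 (gk K) :=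
  (H.l2M hj).sub (H.l2M hj.le)

theorem Tr.orthD (H : Tr K B z h Φ T) (hj : j < K) (ha : Ad j φ) (h2 : MemLp φ 2 (gk K)) :
    ∫ x, φ x * DD Φ T j x ∂gk K = 0 := by
  simp only [DD, mul_sub]
  rw [integral_sub (imul h2 (H.l2M (j := j + 1) hj)) (imul h2 (H.l2M hj.le)),
    H.mart j.le_succ hj ha h2, sub_self]

theorem Tr.split (H : Tr K B z h Φ T) (hj : j < K) (ha : Ad (j + 1) φ) (h2 : MemLp φ 2 (gk K)) :
    ∫ x, φ x * MM Φ T K x ∂gk K = ∫ x, φ x * DD Φ T j x ∂gk K + ∫ x, MM Φ T j x * φ x ∂gk K := by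
  rw [H.mart hj le_rfl ha h2,
    ← integral_add (imul h2 (H.l2D hj)) (imul (H.l2M hj.le) h2)]
  exact integral_congr_ae (ae_of_all _ fun x => by simp only [DD]; ring)

theorem Tr.sqD (H : Tr K B z h Φ T) (hj : j < K) :
    ∫ x, DD Φ T j x * DD Φ T j x ∂gk K = GG z h Φ (j + 1) - GG z h Φ j := by
  have e : ∀ i ≤ K, ∫ x, MM Φ T i x * MM Φ T i x ∂gk K = GG z h Φ i := fun i hi => by
    rw [GG, ← H.ee hi ((measurable_deriv _).pow_const 2) (C := 1) fun y => by
      rw [abs_pow]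
      exact pow_le_one₀ (abs_nonneg _) ((H.toChain.lp hi).b0 y)]
    simp only [sq, MM]
  have h1 := H.orthD hj ad_MM (H.l2M hj.le)
  have h2 := H.split hj ad_DD (H.l2D hj)
  have h3 := H.split hj ad_MM (H.l2M hj)
  have h4 := H.mart j.le_succ hj ad_MM (H.l2M hj.le)
  rw [H.mart hj le_rfl ad_DD (H.l2D hj), h1] at h2
  rw [H.mart hj le_rfl ad_MM (H.l2M hj), h4, e _ hj, e _ hj.le] at h3
  simp only [mul_comm (MM Φ T _ _) (DD Φ T j _)] at h3
  linarith

/-- the messages -/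
def UU (n : ℕ → ℝ) (Φ : ℕ → ℝ → ℝ) (T : ℕ → ℝ → ℝ → ℝ) : ℕ → (Fin K → ℝ) → ℝ
  | 0 => fun _ => 1
  | j + 1 => if n j = 0 then co j else fun x => (√(n j))⁻¹ * DD Φ T j x

theorem ad_UU (n : ℕ → ℝ) : Ad (K := K) j (UU n Φ T j) := by
  rcases j with _ | j
  · exact fun _ _ _ => rfl
  rw [UU]
  split_ifs
  · exact ad_co
  · exact fun x y e => congrArg (_ * ·) (ad_DD x y e)

theorem Tr.UU (H : Tr K B z h Φ T) (hj : j ≤ K) {n : ℕ → ℝ}
    (hn : n = fun j => GG z h Φ (j + 1) - GG z h Φ j) :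
    Measurable (UU (K := K) n Φ T j) ∧ MemLp (UU n Φ T j) 2 (gk K) ∧
      ∫ x, UU n Φ T j x * UU n Φ T j x ∂gk K = 1 ∧
      (∀ i < j, ∀ φ, Ad i φ → MemLp φ 2 (gk K) → ∫ x, φ x * UU n Φ T j x ∂gk K = 0) ∧
      ∀ i, i + 1 = j → ∫ x, UU n Φ T j x * MM Φ T K x ∂gk K = √(n i) := by
  rcases j with _ | j
  · exact ⟨measurable_const, memLp_const 1, by simp [P367A.UU], fun i hi => absurd hi (by omega),
      fun i hi => absurd hi (by omega)⟩
  have sq : ∫ x, DD Φ T j x * DD Φ T j x ∂gk K = n j := hn ▸ H.sqD hj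
  have l2 := H.l2D hj
  rw [P367A.UU]
  split_ifs with h0
  · refine ⟨meas_co, l2_co, sq_co hj, fun i hi φ ha h2 => orth_co hj (ha.mono (by omega)) h2,
      fun i hi => ?_⟩
    obtain rfl : i = j := by omega
    have h1 := (integral_eq_zero_iff_of_nonneg (fun x => mul_self_nonneg _)
      (l2.integrable_mul l2)).1 (sq.trans h0)
    rw [H.split hj ad_co l2_co, orth_co hj ad_MM (H.l2M (by omega)), h0, sqrt_zero, add_zero]
    refine integral_eq_zero_of_ae (h1.mono fun x hx => ?_)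
    simp [mul_self_eq_zero.1 hx]
  · have n0 : 0 ≤ n j := sq ▸ integral_nonneg fun x => mul_self_nonneg _
    have s0 : √(n j) ≠ 0 := (sqrt_pos.2 (n0.lt_of_ne' h0)).ne'
    have s2 := mul_self_sqrt n0
    refine ⟨(((measurable_deriv _).comp (H.meas hj)).sub
      ((measurable_deriv _).comp (H.meas (by omega)))).const_mul _, l2.const_mul _, ?_,
      fun i hi φ ha h2 => ?_, fun i hi => ?_⟩
    · simp only [mul_mul_mul_comm (√(n j))⁻¹ (DD Φ T j _) (√(n j))⁻¹]
      rw [integral_const_mul, sq, ← mul_inv, s2, inv_mul_cancel₀ h0]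
    · simp only [mul_left_comm (φ _)]
      rw [integral_const_mul, H.orthD hj (ha.mono (by omega)) h2, mul_zero]
    · obtain rfl : i = j := by omega
      simp only [mul_assoc]
      rw [integral_const_mul, H.split hj ad_DD l2, sq, H.orthD hj ad_MM (H.l2M (by omega)),
        add_zero, inv_mul_eq_iff_eq_mul₀ s0, s2]

/-- part A3 -/
theorem a3 (H : Chain K B z h Φ) : ∃ P : Prog K, P.Meas ∧ cval z h Φ K 4 ≤ P.val := by
  have : ∀ j, ∃ T : ℝ → ℝ → ℝ, j < K → Measurable (uncurry T) ∧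
      (∀ x, γ1.map (T x) = Km (z j) (h j) (Φ (j + 1)) x) ∧
      ∀ x g, |T x g - (x + √(h j) * g)| ≤ h j := fun j => by
    by_cases hj : j < K
    · exact (transport (H.z0 j hj) (H.z1 j hj) (H.h0 j hj) (H.lp hj)).imp fun _ a _ => a
    · exact ⟨fun _ _ => 0, fun a => absurd a hj⟩
  choose T hT using this
  have R : Tr K B z h Φ T :=
    ⟨H, fun j hj => (hT j hj).1, fun j hj => (hT j hj).2.1, fun j hj => (hT j hj).2.2⟩
  set n := fun j => GG z h Φ (j + 1) - GG z h Φ j with hn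
  have U := fun j (hj : j ≤ K) => R.UU hj hn
  refine ⟨⟨fun l => UU n Φ T l, MM Φ T K⟩, ⟨fun l => (U l l.2.le).1, fun l => (U l l.2.le).2.1,
    fun l x y e => ad_UU n x y e, fun l l' => ?_, (measurable_deriv _).comp (R.meas le_rfl),
    fun x => (H.lp le_rfl).b0 _⟩, ?_⟩
  · rcases lt_trichotomy l l' with e | rfl | e
    · rw [if_neg e.ne]
      exact (U l' l'.2.le).2.2.2.1 l e _ (ad_UU n) (U l l.2.le).2.1
    · rw [if_pos rfl]
      exact (U l l.2.le).2.2.1
    · rw [if_neg e.ne']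
      simp only [mul_comm (UU n Φ T l _)]
      exact (U l l.2.le).2.2.2.1 l' e _ (ad_UU n) (U l' l'.2.le).2.1
  have e : Prog.val ⟨fun l : Fin K => UU n Φ T l, MM Φ T K⟩ = ∑ l ∈ range K,
      (∫ x, co l x * MM Φ T K x ∂gk K) * ∫ x, UU n Φ T l x * MM Φ T K x ∂gk K := by
    rw [Prog.val, sum_range]
    simp only [co, Fin.is_lt, dif_pos]
  rw [e, cval]
  rcases K with _ | K
  · simp
  have e0 : ∫ x, UU n Φ T 0 x * MM Φ T (K + 1) x ∂gk (K + 1) = 0 := by
    rw [R.mart (Nat.zero_le _) le_rfl (ad_UU n) (U 0 (Nat.zero_le _)).2.1]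
    have := pow_eq_zero_iff two_ne_zero |>.1 H.G_zero
    simp [MM, XX, this]
  rw [sum_range_succ', e0, mul_zero, add_zero, Nat.add_sub_cancel]
  refine sum_le_sum fun j hj => ?_
  have hj := mem_range.1 hj
  rw [(U (j + 1) (by omega)).2.2.2.2 j rfl, mul_comm]
  exact mul_le_mul_of_nonneg_right (R.gM (by omega)) (sqrt_nonneg _)

/-- the classical half, given Lemma K -/
theorem partA_of (hK : LemK) : PartA := fun e he => by
  obtain ⟨B, H⟩ := a1 hK he
  obtain ⟨K, z, h, Φ, h1, h2⟩ := H 4 (by norm_num)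
  obtain ⟨P, p1, p2⟩ := a3 h1
  exact ⟨K, P, p1, fun n hn => (h2 n hn).trans (by linarith)⟩

end

end Vale.Agent.P367A
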