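import Vale.Agent.P146L.SO

/-! Part A of P367 (the classical half): chains of tilted Gaussian steps. -/

namespace Vale.Agent.P367A

open MeasureTheory ProbabilityTheory Real Finset Vale.Agent.P146M Vale.Agent.P146 Vale.Agent.P146L

noncomputable section

/-- `K` tilted Gaussian steps with exponents `z j` and variances `h j`. -/
structure Chain (K : ℕ) (B : ℝ) (z h : ℕ → ℝ) (Φ : ℕ → ℝ → ℝ) : Prop where
  z0 : ∀ j < K, 0 < z j
  z1 : ∀ j < K, z j ≤ 1
  h0 : ∀ j < K, 0 ≤ h j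
  h1 : ∀ j < K, h j ≤ 1
  gd : ∀ j ≤ K, ∃ μ, Gd B B μ (Φ j)
  st : ∀ j < K, Φ j = stp (z j) (h j) (Φ (j + 1))

section

variable (z h : ℕ → ℝ) (Φ : ℕ → ℝ → ℝ)

/-- expectation of a function of the field after `j` steps -/
def EE : ℕ → (ℝ → ℝ) → ℝ
  | 0, f => f 0
  | j + 1, f => EE j (Kst (z j) (h j) (Φ (j + 1)) f)

/-- second moment of the magnetisation -/
def GG (j : ℕ) : ℝ := EE z h Φ j fun x => D1 (Φ j) x ^ 2

/-- mean susceptibility -/
def AA (j : ℕ) : ℝ := EE z h Φ j (D2 (Φ j))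

/-- lower bound for the value of the message passing scheme built on the chain -/
def cval (K : ℕ) (C : ℝ) : ℝ := ∑ j ∈ range (K - 1),
  √(GG z h Φ (j + 1) - GG z h Φ j) * (√(h (j + 1)) * AA z h Φ (j + 1) - C * h (j + 1))

end

/-- expected maximal energy -/
def Emax (n : ℕ) : ℝ := ∫ g, (⨆ σ, ham n g σ) ∂disorder n

/-- the statement of Lemma K: no interior maximum inside a gap -/
def LemK : Prop := ∀ (k : ℕ) (r : ℕ → ℝ) (l : ℕ) (x : ℝ), AdmR r → 1 ≤ l → l + 1 < k → 0 ≤ x →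
  x ≤ vv r l → gN k r l x ≤ max (Nn k r l) (Nn k r (l + 1))

end

end Vale.Agent.P367A
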