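import Vale.Agent.P367A.A3
import Vale.Agent.P367K.Main

/-! Part A of P367. -/

namespace Vale.Agent.P367

theorem partA : PartA :=
  P367A.partA_of fun _ _ _ _ hr _ hl h0 h1 => P367K.lemmaK hr (by omega) h0 h1

end Vale.Agent.P367
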